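import Vale.Agent.P207.N5.H77.Rates2
import Vale.Agent.P207.N5.H58.PicG

/-!
# P207, line N5: the picture from the suite, the connection and the rates
-/

open Set Filter Topology Metric MeasureTheory
open scoped ContDiff Nat

set_option linter.unusedSectionVars false

noncomputable section

namespace Vale.Agent.P207.N4.V.H77

open Vale.Agent.P207.N4.H77

open Vale.Agent.P207.N4

variable [Dim]

variable {Γ X B : Type} [Group Γ] [MetricSpace X] [ProperSpace X] [MulAction Γ X]
  [IsIsometricSMul Γ X] [TopologicalSpace B] [CompactSpace B] [T2Space B] [MulAction Γ B]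
  [ContinuousConstSMul Γ B]

theorem nonempty_aff {L : Leaf Γ X B} {M : Metr L} (Ra : Rates M) : Nonempty (Aff L) := by
  have h1 := Ra.pinch
  have h2 := Ra.a_pos
  obtain ⟨F, -⟩ := aff_of_rates M Ra.lo Ra.hi (by linarith)
  exact ⟨F⟩

/-- **the picture exists** -/
def picG_of {L : Leaf Γ X B} [MeasurableSpace B] [BorelSpace B] {V : Type}
    [NormedAddCommGroup V] [NormedSpace ℝ V] [FiniteDimensional ℝ V] (S : Suite L V)
    (Cn : H618.Conn S.I S.M.U) (Ra : Rates S.M) : PicG L V :=
  PicG.mk' S Cn (nonempty_aff Ra).some Ra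

theorem picG_of_S {L : Leaf Γ X B} [MeasurableSpace B] [BorelSpace B] {V : Type}
    [NormedAddCommGroup V] [NormedSpace ℝ V] [FiniteDimensional ℝ V] (S : Suite L V)
    (Cn : H618.Conn S.I S.M.U) (Ra : Rates S.M) : (picG_of S Cn Ra).S = S := rfl

end Vale.Agent.P207.N4.V.H77
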