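import Vale.Agent.P207.N5.H77.Aff6

/-!
# P207, line N5, row T1: the rates from the horospherical metric

`aff_of_metr` : the affine charts exist if `U ≤ b` and `b < 2 χ`.
-/

open Set Filter Topology Metric MeasureTheory
open scoped ContDiff Nat

set_option linter.unusedSectionVars false

noncomputable section

namespace Vale.Agent.P207.N4.V.H77

open Vale.Agent.P207.N4.H77

open Vale.Agent.P207.N3.H646 Vale.Agent.P207.H77
open Vale.Agent.P207.N4 Vale.Agent.P207.N4.H646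

variable [Dim]

variable {Γ X B : Type} [Group Γ] [MetricSpace X] [ProperSpace X] [MulAction Γ X]
  [IsIsometricSMul Γ X] [TopologicalSpace B] [CompactSpace B] [T2Space B] [MulAction Γ B]
  [ContinuousConstSMul Γ B]

variable {L : Leaf Γ X B}

theorem Dt_inverse (t : ℝ) (x : X) :
    Dt L t x = Ring.inverse (fderiv ℝ (L.τ (L.φ t x) x) 0) := by
  have h1 : fderiv ℝ (L.τ (L.φ t x) x) 0 = Dt L (-t) (L.φ t x) := by
    unfold Dt
    rw [L.φ_neg]
  have h2 : Dt L (-t) (L.φ t x) * Dt L t x = 1 := Dt_neg_comp L t x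
  have h3 : Dt L t x * Dt L (-t) (L.φ t x) = 1 := by
    have := Dt_comp_neg L t (L.φ t x)
    rwa [L.φ_neg] at this
  rw [h1]
  let u : (E2 →L[ℝ] E2)ˣ := ⟨Dt L (-t) (L.φ t x), Dt L t x, h2, h3⟩
  have h4 : Ring.inverse (u : E2 →L[ℝ] E2) = ((u⁻¹ : (E2 →L[ℝ] E2)ˣ) : E2 →L[ℝ] E2) :=
    Ring.inverse_unit u
  exact h4.symm

/-- the unstable Jacobi tensor: `(Dt v)' = U (Dt v)` -/
theorem hasDerivAt_Dt (M : Metr L) (x : X) (t : ℝ) :
    HasDerivAt (fun s => Dt L s x) (M.U (L.φ t x) ∘L Dt L t x) t := by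
  have h1 : fderiv ℝ (L.τ (L.φ t x) x) 0 = Dt L (-t) (L.φ t x) := by
    unfold Dt
    rw [L.φ_neg]
  have h2 : Dt L (-t) (L.φ t x) * Dt L t x = 1 := Dt_neg_comp L t x
  have h3 : Dt L t x * Dt L (-t) (L.φ t x) = 1 := by
    have := Dt_comp_neg L t (L.φ t x)
    rwa [L.φ_neg] at this
  let u : (E2 →L[ℝ] E2)ˣ := ⟨Dt L (-t) (L.φ t x), Dt L t x, h2, h3⟩
  have h4 := hasFDerivAt_ringInverse (𝕜 := ℝ) (R := E2 →L[ℝ] E2) u
  have h5 : (u : E2 →L[ℝ] E2) = fderiv ℝ (L.τ (L.φ t x) x) 0 := h1.symm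
  rw [h5] at h4
  have h6 := h4.comp_hasDerivAt t (M.jac x t)
  have h7 : (Ring.inverse ∘ fun s => fderiv ℝ (L.τ (L.φ s x) x) 0) = fun s => Dt L s x := by
    funext s
    exact (Dt_inverse s x).symm
  rw [h7] at h6
  refine h6.congr_deriv ?_
  refine ContinuousLinearMap.ext fun w => ?_
  show -(Dt L t x (-(fderiv ℝ (L.τ (L.φ t x) x) 0 (M.U (L.φ t x) (Dt L t x w))))) =
    M.U (L.φ t x) (Dt L t x w)
  rw [map_neg, neg_neg, h1]
  have h8 := congrArg (fun A : E2 →L[ℝ] E2 => A (M.U (L.φ t x) (Dt L t x w))) h3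
  exact h8

theorem Dt_le (M : Metr L) {b : ℝ} (hb : ∀ x v, inner ℝ (M.U x v) v ≤ b * ‖v‖ ^ 2) (x : X)
    {t : ℝ} (ht : 0 ≤ t) (v : E2) : ‖Dt L t x v‖ ≤ Real.exp (b * t) * ‖v‖ := by
  have hd : ∀ s, HasDerivAt (fun s => Dt L s x v) (M.U (L.φ s x) (Dt L s x v)) s := fun s =>
    ((ContinuousLinearMap.apply ℝ E2 v).hasFDerivAt.comp_hasDerivAt s (hasDerivAt_Dt M x s))
  have hg : ∀ s, HasDerivAt (fun s => ‖Dt L s x v‖ ^ 2 * Real.exp (-2 * b * s))
      ((2 * inner ℝ (Dt L s x v) (M.U (L.φ s x) (Dt L s x v))) * Real.exp (-2 * b * s) +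
        ‖Dt L s x v‖ ^ 2 * (Real.exp (-2 * b * s) * (-2 * b))) s := by
    intro s
    have h1 := (hd s).norm_sq
    have h2 : HasDerivAt (fun s : ℝ => Real.exp (-2 * b * s)) (Real.exp (-2 * b * s) * (-2 * b)) s := by
      have := ((hasDerivAt_id s).const_mul (-2 * b)).exp
      simpa using this
    exact h1.mul h2
  have hmono : Antitone fun s => ‖Dt L s x v‖ ^ 2 * Real.exp (-2 * b * s) := by
    refine antitone_of_deriv_nonpos (fun s => (hg s).differentiableAt) fun s => ?_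
    rw [(hg s).deriv]
    have h3 := hb (L.φ s x) (Dt L s x v)
    rw [real_inner_comm] at h3
    have h4 := Real.exp_pos (-2 * b * s)
    nlinarith
  have h5 := hmono ht
  simp only [mul_zero, Real.exp_zero, mul_one, Dt_zero] at h5
  have h6 : ‖Dt L t x v‖ ^ 2 ≤ (Real.exp (b * t) * ‖v‖) ^ 2 := by
    have h7 : Real.exp (-2 * b * t) * Real.exp (b * t) ^ 2 = 1 := by
      rw [← Real.exp_nat_mul, ← Real.exp_add, Real.exp_eq_one_iff]
      push_cast; ring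
    have h8 : ‖Dt L t x v‖ ^ 2 = (‖Dt L t x v‖ ^ 2 * Real.exp (-2 * b * t)) *
        Real.exp (b * t) ^ 2 := by rw [mul_assoc, h7, mul_one]
    rw [h8, mul_pow, mul_comm (Real.exp (b * t) ^ 2)]
    gcongr
    exact h5
  exact le_of_sq_le_sq h6 (by positivity)

/-- the rates in the charts -/
theorem lrates_of (M : Metr L) {a b : ℝ} (ha : 0 < a) (hab : a ≤ b) (hχ : a ≤ L.χ)
    (hb : ∀ x v, inner ℝ (M.U x v) v ≤ b * ‖v‖ ^ 2) : LRates L a b := by
  refine ⟨ha, hab, fun k hk => ?_, 1, fun x t ht => ?_⟩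
  · obtain ⟨C, hC⟩ := L.contract k hk
    refine ⟨max C 0, fun x t ht u hu => (hC x t ht u hu).trans ?_⟩
    have ht0 : 0 ≤ t := L.t1_pos.le.trans ht
    have h1 : Real.exp (-L.χ * t) ≤ Real.exp (-a * t) := Real.exp_le_exp.2 (by nlinarith)
    exact mul_le_mul (le_max_left _ _) h1 (Real.exp_pos _).le (le_max_right _ _)
  · have ht0 : 0 ≤ t := L.t1_pos.le.trans ht
    rw [one_mul]
    exact ContinuousLinearMap.opNorm_le_bound _ (Real.exp_pos _).le fun v => Dt_le M hb x ht0 v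

/-- **(T1)**, from the rates of the geometry -/
theorem aff_of_metr (M : Metr L) {b : ℝ} (hb : ∀ x v, inner ℝ (M.U x v) v ≤ b * ‖v‖ ^ 2)
    (h : b < 2 * L.χ) : ∃ F : Aff L, (∀ x η, F.ch x η = F.c • aff L x η) ∧
    (∀ x, ∀ u ∈ ball (0 : E2) 3, F.ch x (L.e x u) = F.c • lin L x u) ∧
    ∀ t x, ((F.P t x : E2 →L[ℝ] E2)) = Dt L t x := by
  have hb0 : 0 < b := by
    obtain ⟨x⟩ := L.nonempty
    obtain ⟨v, hv⟩ := exists_ne (0 : E2)
    have h1 := M.U_pos x v hv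
    have h2 := hb x v
    have h3 : 0 < ‖v‖ ^ 2 := by positivity
    exact pos_of_mul_pos_left (h1.trans_le h2) h3.le
  have hχ := L.χ_pos
  refine exists_aff (lrates_of M (a := min L.χ b) (b := b) (lt_min hχ hb0) (min_le_right _ _)
    (min_le_left _ _) hb) ?_
  rcases min_cases L.χ b with ⟨h1, _⟩ | ⟨h1, _⟩ <;> rw [h1] <;> linarith

end Vale.Agent.P207.N4.V.H77
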