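import Vale.Agent.P207.N5.H77.Rates

/-!
# P207, line N5, row T1: the rates of all derivatives from the rates of the metric

If `a ≤ U ≤ b`, then all derivatives of the backward maps contract at every rate `a' < a`.
-/

open Set Filter Topology Metric MeasureTheory
open scoped ContDiff Nat

set_option linter.unusedSectionVars false

noncomputable section

namespace Vale.Agent.P207.N4.V.H77

open Vale.Agent.P207.N4.H77

open Vale.Agent.P207.N3.H646 Vale.Agent.P207.H77
open Vale.Agent.P207.N4 Vale.Agent.P207.N4.H646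

variable [Dim]

variable {Γ X B : Type} [Group Γ] [MetricSpace X] [ProperSpace X] [MulAction Γ X]
  [IsIsometricSMul Γ X] [TopologicalSpace B] [CompactSpace B] [T2Space B] [MulAction Γ B]
  [ContinuousConstSMul Γ B]

variable {L : Leaf Γ X B}

theorem Dt_ge (M : Metr L) {a : ℝ} (ha : ∀ x v, a * ‖v‖ ^ 2 ≤ inner ℝ (M.U x v) v) (x : X)
    {t : ℝ} (ht : 0 ≤ t) (v : E2) : Real.exp (a * t) * ‖v‖ ≤ ‖Dt L t x v‖ := by
  have hd : ∀ s, HasDerivAt (fun s => Dt L s x v) (M.U (L.φ s x) (Dt L s x v)) s := fun s =>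
    ((ContinuousLinearMap.apply ℝ E2 v).hasFDerivAt.comp_hasDerivAt s (hasDerivAt_Dt M x s))
  have hg : ∀ s, HasDerivAt (fun s => ‖Dt L s x v‖ ^ 2 * Real.exp (-2 * a * s))
      ((2 * inner ℝ (Dt L s x v) (M.U (L.φ s x) (Dt L s x v))) * Real.exp (-2 * a * s) +
        ‖Dt L s x v‖ ^ 2 * (Real.exp (-2 * a * s) * (-2 * a))) s := by
    intro s
    have h1 := (hd s).norm_sq
    have h2 : HasDerivAt (fun s : ℝ => Real.exp (-2 * a * s)) (Real.exp (-2 * a * s) * (-2 * a)) s := by
      have := ((hasDerivAt_id s).const_mul (-2 * a)).exp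
      simpa using this
    exact h1.mul h2
  have hmono : Monotone fun s => ‖Dt L s x v‖ ^ 2 * Real.exp (-2 * a * s) := by
    refine monotone_of_deriv_nonneg (fun s => (hg s).differentiableAt) fun s => ?_
    rw [(hg s).deriv]
    have h3 := ha (L.φ s x) (Dt L s x v)
    rw [real_inner_comm] at h3
    have h4 := Real.exp_pos (-2 * a * s)
    nlinarith
  have h5 := hmono ht
  simp only [mul_zero, Real.exp_zero, mul_one, Dt_zero] at h5
  have h6 : (Real.exp (a * t) * ‖v‖) ^ 2 ≤ ‖Dt L t x v‖ ^ 2 := by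
    have h7 : Real.exp (-2 * a * t) * Real.exp (a * t) ^ 2 = 1 := by
      rw [← Real.exp_nat_mul, ← Real.exp_add, Real.exp_eq_one_iff]
      push_cast; ring
    have h8 : ‖Dt L t x v‖ ^ 2 = (‖Dt L t x v‖ ^ 2 * Real.exp (-2 * a * t)) *
        Real.exp (a * t) ^ 2 := by rw [mul_assoc, h7, mul_one]
    rw [h8, mul_pow, mul_comm (Real.exp (a * t) ^ 2)]
    gcongr
    exact h5
  exact le_of_sq_le_sq h6 (norm_nonneg _)

theorem Dt_back_le (M : Metr L) {a : ℝ} (ha : ∀ x v, a * ‖v‖ ^ 2 ≤ inner ℝ (M.U x v) v) (x : X)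
    {t : ℝ} (ht : 0 ≤ t) : ‖Dt L (-t) x‖ ≤ Real.exp (-a * t) := by
  refine ContinuousLinearMap.opNorm_le_bound _ (Real.exp_pos _).le fun v => ?_
  have h1 := Dt_ge M ha (L.φ (-t) x) ht (Dt L (-t) x v)
  have h2 : Dt L t (L.φ (-t) x) (Dt L (-t) x v) = v :=
    congrArg (fun A : E2 →L[ℝ] E2 => A v) (Dt_comp_neg L t x)
  rw [h2] at h1
  have h3 : Real.exp (-a * t) * Real.exp (a * t) = 1 := by
    rw [← Real.exp_add, Real.exp_eq_one_iff]; ring
  calc ‖Dt L (-t) x v‖ = Real.exp (-a * t) * (Real.exp (a * t) * ‖Dt L (-t) x v‖) := by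
        rw [← mul_assoc, h3, one_mul]
    _ ≤ Real.exp (-a * t) * ‖v‖ := by gcongr

/-- all derivatives of the backward maps, at the multiples of `t1`, have the rate `ρ` -/
def Rt (L : Leaf Γ X B) (ρ : ℝ) : Prop := ∀ k : ℕ, ∃ C : ℝ, 0 ≤ C ∧ ∀ (n : ℕ) (x : X),
  ∀ u ∈ ball (0 : E2) 3, ‖iteratedFDeriv ℝ k (pm L (((n : ℝ) + 1) * L.t1) x) u‖ ≤
    C * Real.exp (-ρ * (((n : ℝ) + 1) * L.t1))

theorem t_mul' (L : Leaf Γ X B) (n : ℕ) : L.t1 ≤ ((n : ℝ) + 1) * L.t1 := by
  have := L.t1_pos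
  nlinarith [mul_nonneg (Nat.cast_nonneg (α := ℝ) n) this.le]

theorem rt_χ (L : Leaf Γ X B) : Rt L L.χ := by
  intro k
  rcases Nat.eq_zero_or_pos k with rfl | hk
  · obtain ⟨C, hC, h⟩ := pm_small L
    refine ⟨C, by linarith, fun n x u hu => ?_⟩
    rw [norm_iteratedFDeriv_zero]
    exact h x _ (t_mul' L n) u hu
  · obtain ⟨C, hC, h⟩ := contract' L k hk
    exact ⟨C, by linarith, fun n x u hu => h x _ (t_mul' L n) u hu⟩

theorem pm_smoothAt {t : ℝ} (ht : L.t1 ≤ t) (x : X) {u : E2} (hu : u ∈ ball (0 : E2) 3) :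
    ContDiffAt ℝ ∞ (pm L t x) u := tau_smoothAt L (em_back L t x) (mem_dm_back L ht x hu)

theorem pm_maps {t : ℝ} (ht : L.t1 ≤ t) (x : X) : MapsTo (pm L t x) (ball 0 3) (ball 0 3) :=
  fun _ hu => ball_subset_ball (by norm_num) (pm_mem L ht x hu)

/-- **the bootstrap** -/
theorem rt_step (M : Metr L) {a ρ ρ' : ℝ} (ha : ∀ x v, a * ‖v‖ ^ 2 ≤ inner ℝ (M.U x v) v)
    (hρ : Rt L ρ) (hρ0 : 0 ≤ ρ) (h1 : ρ' < a) (h2 : ρ' ≤ 2 * ρ) : Rt L ρ' := by
  have ht := L.t1_pos
  intro k
  choose C hC0 hC using hρ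
  choose! Cc hCc1 hCc using contract' L
  -- constants
  set Mc : ℝ := 1 + ∑ i ∈ Finset.range (k + 2), C i with hMc
  set K : ℝ := ∑ i ∈ Finset.range (k + 3), (|Cc i| + |Cc 1|) with hK
  have hM1 : 1 ≤ Mc := by
    have : 0 ≤ ∑ i ∈ Finset.range (k + 2), C i := Finset.sum_nonneg fun i _ => hC0 i
    linarith
  have hCM : ∀ i ≤ k + 1, C i ≤ Mc := by
    intro i hi
    have h3 : C i ≤ ∑ i ∈ Finset.range (k + 2), C i :=
      Finset.single_le_sum (fun i _ => hC0 i) (Finset.mem_range.mpr (by omega))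
    linarith
  have hKK : ∀ i ≤ k + 2, |Cc i| + |Cc 1| ≤ K := fun i hi =>
    Finset.single_le_sum (f := fun i => |Cc i| + |Cc 1|) (fun i _ => by positivity)
      (Finset.mem_range.mpr (by omega))
  have hK0 : 0 ≤ K := Finset.sum_nonneg fun i _ => by positivity
  set Q : ℝ := (2 ^ k * (k ! * Mc ^ k * K * Mc) * Mc) with hQ
  have hQ0 : 0 ≤ Q := by positivity
  have hgap : 0 < Real.exp (-ρ' * L.t1) - Real.exp (-a * L.t1) := by
    rw [sub_pos]
    exact Real.exp_lt_exp.2 (by nlinarith)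
  set W : ℝ := C k * Real.exp (ρ' * L.t1) + Q / (Real.exp (-ρ' * L.t1) - Real.exp (-a * L.t1))
    with hW
  have hW0 : 0 ≤ W := by
    have := hC0 k
    positivity
  refine ⟨W, hW0, fun n => ?_⟩
  induction n with
  | zero =>
    intro x u hu
    have h3 := hC k 0 x u hu
    refine h3.trans ?_
    have h4 : Real.exp (-ρ * (((0 : ℕ) + 1 : ℝ) * L.t1)) ≤ 1 :=
      Real.exp_le_one_iff.2 (by push_cast; nlinarith)
    have h5 : Real.exp (ρ' * L.t1) * Real.exp (-ρ' * (((0 : ℕ) + 1 : ℝ) * L.t1)) = 1 := by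
      rw [← Real.exp_add, Real.exp_eq_one_iff]; push_cast; ring
    have h6 : C k * Real.exp (ρ' * L.t1) ≤ W := by
      rw [hW]
      have : 0 ≤ Q / (Real.exp (-ρ' * L.t1) - Real.exp (-a * L.t1)) := by positivity
      linarith
    calc C k * Real.exp (-ρ * (((0 : ℕ) + 1 : ℝ) * L.t1)) ≤ C k * 1 := by
          have := hC0 k
          gcongr
      _ = (C k * Real.exp (ρ' * L.t1)) * Real.exp (-ρ' * (((0 : ℕ) + 1 : ℝ) * L.t1)) := by
          rw [mul_assoc, h5]
      _ ≤ W * Real.exp (-ρ' * (((0 : ℕ) + 1 : ℝ) * L.t1)) := by gcongr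
  | succ n ih =>
    intro x u hu
    set s : ℝ := ((n : ℝ) + 1) * L.t1 with hs
    have hst : L.t1 ≤ s := t_mul' L n
    set z := L.φ (-s) x with hz
    set A : E2 →L[ℝ] E2 := Dt L (-L.t1) z with hA
    set q : E2 → E2 := fun w => pm L L.t1 z w - A w with hq
    have hqs : ∀ w ∈ ball (0 : E2) 3, ContDiffAt ℝ ∞ q w := fun w hw =>
      (pm_smoothAt le_rfl z hw).sub A.contDiff.contDiffAt
    have hFs : ∀ w ∈ ball (0 : E2) 3, ContDiffAt ℝ ∞ (pm L s x) w := fun w hw =>
      pm_smoothAt hst x hw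
    have hAi : ∀ (i : ℕ) (w : E2), 2 ≤ i → iteratedFDeriv ℝ i (fun w : E2 => A w) w = 0 := by
      intro i w hi
      obtain ⟨j, rfl⟩ : ∃ j, i = j + 1 := ⟨i - 1, by omega⟩
      rw [← norm_eq_zero, ← norm_iteratedFDeriv_fderiv]
      have h3 : fderiv ℝ (fun u : E2 => A u) = fun _ => A := by
        funext z; exact A.fderiv
      rw [h3, iteratedFDeriv_const_of_ne (by omega)]
      simp
    have hqd : ∀ i, 1 ≤ i → i ≤ k + 2 → ∀ w ∈ ball (0 : E2) 3,
        ‖iteratedFDeriv ℝ i q w‖ ≤ K := by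
      intro i hi1 hi2 w hw
      have h3 : iteratedFDeriv ℝ i q w = iteratedFDeriv ℝ i (pm L L.t1 z) w -
          iteratedFDeriv ℝ i (fun w : E2 => A w) w :=
        iteratedFDeriv_sub_apply (i := i) ((pm_smoothAt le_rfl z hw).of_le
          (by exact_mod_cast le_top)) A.contDiff.contDiffAt
      have h4 : ‖iteratedFDeriv ℝ i (pm L L.t1 z) w‖ ≤ |Cc i| := by
        refine (hCc i hi1 z L.t1 le_rfl w hw).trans ?_
        have h5 : Real.exp (-L.χ * L.t1) ≤ 1 := Real.exp_le_one_iff.2 (by nlinarith [L.χ_pos])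
        calc Cc i * Real.exp (-L.χ * L.t1) ≤ |Cc i| * Real.exp (-L.χ * L.t1) := by
              gcongr; exact le_abs_self _
          _ ≤ |Cc i| * 1 := by gcongr
          _ = |Cc i| := mul_one _
      have h5 : ‖iteratedFDeriv ℝ i (fun w : E2 => A w) w‖ ≤ |Cc 1| := by
        rcases Nat.lt_or_ge 1 i with h6 | h6
        · rw [hAi i w h6, norm_zero]; positivity
        · have h7 : i = 1 := by omega
          subst h7
          rw [norm_iteratedFDeriv_one, A.fderiv, hA, ← fderiv_pm, ← norm_iteratedFDeriv_one]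
          refine (hCc 1 le_rfl z L.t1 le_rfl 0 zero_mem3).trans ?_
          have h5 : Real.exp (-L.χ * L.t1) ≤ 1 := Real.exp_le_one_iff.2 (by nlinarith [L.χ_pos])
          calc Cc 1 * Real.exp (-L.χ * L.t1) ≤ |Cc 1| * Real.exp (-L.χ * L.t1) := by
                gcongr; exact le_abs_self _
            _ ≤ |Cc 1| * 1 := by gcongr
            _ = |Cc 1| := mul_one _
      rw [h3]
      exact (norm_sub_le _ _).trans ((add_le_add h4 h5).trans (hKK i hi2))
    have hq0 : q 0 = 0 := by simp [hq, pm_zero]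
    have hq1 : fderiv ℝ q 0 = 0 := by
      rw [hq, fderiv_fun_sub ((pm_smoothAt le_rfl z zero_mem3).differentiableAt (by simp))
        A.differentiableAt, fderiv_pm, ContinuousLinearMap.fderiv, ← hA, sub_self]
    set ε : ℝ := Real.exp (-ρ * s) with hε
    have hε1 : ε ≤ 1 := Real.exp_le_one_iff.2 (by nlinarith)
    have hquad := iter_quad_comp (q := q) (f := pm L s x) (r := 3) (by norm_num)
      (fun w hw => (hqs w hw).contDiffWithinAt) hq0 hq1
      (fun w hw => (hFs w hw).contDiffWithinAt) (pm_maps hst x) k (M := Mc) (K := K) (ε := ε)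
      (Real.exp_pos _).le hε1 hM1 hK0 hqd
      (fun w hw => by
        have := hC 0 n x w hw
        rw [norm_iteratedFDeriv_zero] at this
        refine this.trans ?_
        have := hCM 0 (by omega)
        gcongr)
      (fun i _ hi w hw => by
        refine (hC i n x w hw).trans ?_
        have := hCM i hi
        gcongr)
      u hu
    -- the decomposition
    have hdec : pm L ((((n + 1 : ℕ) : ℝ) + 1) * L.t1) x =ᶠ[𝓝 u]
        fun w => A (pm L s x w) + q (pm L s x w) := by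
      filter_upwards [isOpen_ball.mem_nhds hu] with w hw
      have h3 := pm_pm L hst (le_refl L.t1) x hw
      have h4 : (((n + 1 : ℕ) : ℝ) + 1) * L.t1 = s + L.t1 := by rw [hs]; push_cast; ring
      rw [h4, ← h3]
      show _ = A (pm L s x w) + (pm L L.t1 z (pm L s x w) - A (pm L s x w))
      abel
    have hd1 : ContDiffAt ℝ ∞ (fun w => A (pm L s x w)) u :=
      A.contDiff.contDiffAt.comp u (hFs u hu)
    have hd2 : ContDiffAt ℝ ∞ (fun w => q (pm L s x w)) u :=
      (hqs _ (pm_maps hst x hu)).comp u (hFs u hu)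
    have h3 : iteratedFDeriv ℝ k (pm L ((((n + 1 : ℕ) : ℝ) + 1) * L.t1) x) u =
        iteratedFDeriv ℝ k (fun w => A (pm L s x w)) u +
          iteratedFDeriv ℝ k (fun w => q (pm L s x w)) u := by
      rw [(Filter.EventuallyEq.iteratedFDeriv ℝ hdec k).eq_of_nhds]
      exact iteratedFDeriv_add_apply (hd1.of_le (by exact_mod_cast le_top))
        (hd2.of_le (by exact_mod_cast le_top))
    have h4 : ‖iteratedFDeriv ℝ k (fun w => A (pm L s x w)) u‖ ≤
        Real.exp (-a * L.t1) * (W * Real.exp (-ρ' * s)) := by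
      have h5 := A.norm_iteratedFDeriv_comp_left (hFs u hu) (n := k) (by exact_mod_cast le_top)
      refine h5.trans ?_
      exact mul_le_mul (Dt_back_le M ha z ht.le) (ih x u hu) (norm_nonneg _) (Real.exp_pos _).le
    have h5 : ε ^ 2 ≤ Real.exp (-ρ' * s) := by
      rw [hε, ← Real.exp_nat_mul]
      have hs0 : 0 ≤ s := ht.le.trans hst
      exact Real.exp_le_exp.2 (by push_cast; nlinarith)
    have h6 : ‖iteratedFDeriv ℝ k (fun w => q (pm L s x w)) u‖ ≤ Q * Real.exp (-ρ' * s) :=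
      hquad.trans (mul_le_mul_of_nonneg_left h5 hQ0)
    have h7 : Real.exp (-a * L.t1) * W + Q ≤ Real.exp (-ρ' * L.t1) * W := by
      have h8 : Q / (Real.exp (-ρ' * L.t1) - Real.exp (-a * L.t1)) ≤ W := by
        rw [hW]
        have : 0 ≤ C k * Real.exp (ρ' * L.t1) := by
          have := hC0 k
          positivity
        linarith
      rw [div_le_iff₀ hgap] at h8
      linarith
    have h8 : -ρ' * ((((n + 1 : ℕ) : ℝ) + 1) * L.t1) = -ρ' * L.t1 + -ρ' * s := by
      rw [hs]; push_cast; ring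
    rw [h3, h8, Real.exp_add]
    calc ‖iteratedFDeriv ℝ k (fun w => A (pm L s x w)) u +
          iteratedFDeriv ℝ k (fun w => q (pm L s x w)) u‖
        ≤ Real.exp (-a * L.t1) * (W * Real.exp (-ρ' * s)) + Q * Real.exp (-ρ' * s) :=
          (norm_add_le _ _).trans (add_le_add h4 h6)
      _ = (Real.exp (-a * L.t1) * W + Q) * Real.exp (-ρ' * s) := by ring
      _ ≤ (Real.exp (-ρ' * L.t1) * W) * Real.exp (-ρ' * s) := by gcongr
      _ = W * (Real.exp (-ρ' * L.t1) * Real.exp (-ρ' * s)) := by ring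

theorem rt_all (M : Metr L) {a a' : ℝ} (ha : ∀ x v, a * ‖v‖ ^ 2 ≤ inner ℝ (M.U x v) v)
    (h1 : a' < a) (h0 : 0 < a') : Rt L a' := by
  have hχ := L.χ_pos
  have h2 : ∀ j : ℕ, Rt L (min a' (2 ^ j * L.χ)) := by
    intro j
    induction j with
    | zero =>
      rcases le_total a' L.χ with h | h
      · rw [pow_zero, one_mul, min_eq_left h]
        intro k
        obtain ⟨C, hC0, hC⟩ := rt_χ L k
        refine ⟨C, hC0, fun n x u hu => (hC n x u hu).trans ?_⟩
        have ht := (L.t1_pos.le.trans (t_mul' L n))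
        have : Real.exp (-L.χ * (((n : ℝ) + 1) * L.t1)) ≤
            Real.exp (-a' * (((n : ℝ) + 1) * L.t1)) := Real.exp_le_exp.2 (by nlinarith)
        gcongr
      · rw [pow_zero, one_mul, min_eq_right h]
        exact rt_χ L
    | succ j ih =>
      refine rt_step M ha ih (le_min h0.le (by positivity)) ((min_le_left _ _).trans_lt h1) ?_
      rw [mul_min_of_nonneg _ _ (by norm_num : (0 : ℝ) ≤ 2)]
      refine le_min ((min_le_left _ _).trans (by linarith)) ((min_le_right _ _).trans (le_of_eq ?_))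
      ring
  obtain ⟨j, hj⟩ := pow_unbounded_of_one_lt (a' / L.χ) (by norm_num : (1 : ℝ) < 2)
  rw [div_lt_iff₀ hχ] at hj
  have h3 := h2 j
  rwa [min_eq_left hj.le] at h3

/-- the rates in the charts, from the rates of the metric -/
theorem lrates_all (M : Metr L) {a a' b : ℝ} (ha : ∀ x v, a * ‖v‖ ^ 2 ≤ inner ℝ (M.U x v) v)
    (h1 : a' < a) (h0 : 0 < a') (hab : a' ≤ b)
    (hb : ∀ x v, inner ℝ (M.U x v) v ≤ b * ‖v‖ ^ 2) : LRates L a' b := by
  have ht1 := L.t1_pos
  refine ⟨h0, hab, fun k hk => ?_, 1, fun x t ht => ?_⟩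
  · obtain hrt := rt_all M ha h1 h0
    choose C hC0 hC using hrt
    choose! Cc hCc1 hCc using contract' L
    set Mc : ℝ := 1 + ∑ i ∈ Finset.range (k + 1), C i with hMc
    set K : ℝ := 1 + ∑ i ∈ Finset.range (k + 1), |Cc i| with hK
    have hM1 : 1 ≤ Mc := by
      have : 0 ≤ ∑ i ∈ Finset.range (k + 1), C i := Finset.sum_nonneg fun i _ => hC0 i
      linarith
    have hCM : ∀ i ≤ k, C i ≤ Mc := by
      intro i hi
      have h3 : C i ≤ ∑ i ∈ Finset.range (k + 1), C i :=
        Finset.single_le_sum (fun i _ => hC0 i) (Finset.mem_range.mpr (by omega))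
      linarith
    have hK1 : 1 ≤ K := by
      have : 0 ≤ ∑ i ∈ Finset.range (k + 1), |Cc i| := Finset.sum_nonneg fun i _ => abs_nonneg _
      linarith
    have hCK : ∀ i ≤ k, |Cc i| ≤ K := by
      intro i hi
      have h3 : |Cc i| ≤ ∑ i ∈ Finset.range (k + 1), |Cc i| :=
        Finset.single_le_sum (fun i _ => abs_nonneg (Cc i)) (Finset.mem_range.mpr (by omega))
      linarith
    have hpmb : ∀ i ≤ k, ∀ x, ∀ t ≥ L.t1, ∀ u ∈ ball (0 : E2) 3,
        ‖iteratedFDeriv ℝ i (pm L t x) u‖ ≤ K := by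
      intro i hi x t ht u hu
      rcases Nat.eq_zero_or_pos i with rfl | hi0
      · rw [norm_iteratedFDeriv_zero]
        have h3 := mem_ball_zero_iff.1 (pm_mem L ht x hu)
        linarith
      · refine (hCc i hi0 x t ht u hu).trans ?_
        have h5 : Real.exp (-L.χ * t) ≤ 1 := Real.exp_le_one_iff.2 (by nlinarith [L.χ_pos])
        calc Cc i * Real.exp (-L.χ * t) ≤ |Cc i| * Real.exp (-L.χ * t) := by
              gcongr; exact le_abs_self _
          _ ≤ |Cc i| * 1 := by gcongr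
          _ ≤ K := by rw [mul_one]; exact hCK i hi
    have key : ∀ x, ∀ t ≥ L.t1, ∀ u ∈ ball (0 : E2) 3, ‖iteratedFDeriv ℝ k (pm L t x) u‖ ≤
        (k ! * K * Mc ^ k) * Real.exp (2 * a' * L.t1) * Real.exp (-a' * t) := by
      intro x t ht u hu
      have hfac : (1 : ℝ) ≤ k ! := by exact_mod_cast Nat.one_le_iff_ne_zero.mpr (Nat.factorial_ne_zero k)
      have hMk : (1 : ℝ) ≤ Mc ^ k := one_le_pow₀ hM1
      have hK0' : 0 ≤ K := by linarith
      have hMc0 : 0 ≤ Mc := by linarith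
      have hKle : K ≤ k ! * K * Mc ^ k := by
        calc K = 1 * K * 1 := by ring
          _ ≤ k ! * K * Mc ^ k := by gcongr
      rcases lt_or_ge t (2 * L.t1) with h2 | h2
      · refine (hpmb k le_rfl x t ht u hu).trans (hKle.trans ?_)
        have h3 : 1 ≤ Real.exp (2 * a' * L.t1) * Real.exp (-a' * t) := by
          rw [← Real.exp_add]
          exact Real.one_le_exp (by nlinarith)
        rw [mul_assoc (k ! * K * Mc ^ k)]
        exact le_mul_of_one_le_right (hK0'.trans hKle) h3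
      · -- t = (n + 1) t1 + r
        obtain ⟨n, hn1, hn2⟩ : ∃ n : ℕ, ((n : ℝ) + 1) * L.t1 + L.t1 ≤ t ∧
            t ≤ ((n : ℝ) + 1) * L.t1 + 2 * L.t1 := by
          have h3 : 0 ≤ t / L.t1 - 2 := by
            rw [sub_nonneg, le_div_iff₀ ht1]; exact h2
          refine ⟨⌊t / L.t1 - 2⌋₊, ?_, ?_⟩
          · have h4 := Nat.floor_le h3
            have h5 : ((⌊t / L.t1 - 2⌋₊ : ℝ) + 2) ≤ t / L.t1 := by linarith
            rw [le_div_iff₀ ht1] at h5
            linarith
          · have h4 := (Nat.lt_floor_add_one (t / L.t1 - 2)).le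
            have h5 : t / L.t1 ≤ ((⌊t / L.t1 - 2⌋₊ : ℝ) + 3) := by linarith
            rw [div_le_iff₀ ht1] at h5
            linarith
        set s : ℝ := ((n : ℝ) + 1) * L.t1 with hs
        have hst : L.t1 ≤ s := t_mul' L n
        have hr : L.t1 ≤ t - s := by linarith
        have heq : pm L t x =ᶠ[𝓝 u] fun w => pm L (t - s) (L.φ (-s) x) (pm L s x w) := by
          filter_upwards [isOpen_ball.mem_nhds hu] with w hw
          have h3 := pm_pm L hst hr x hw
          rw [h3]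
          congr 1
          ring
        rw [(Filter.EventuallyEq.iteratedFDeriv ℝ heq k).eq_of_nhds]
        have hε1 : Real.exp (-a' * s) ≤ 1 := Real.exp_le_one_iff.2 (by nlinarith)
        have h3 := iter_comp_small (g := pm L (t - s) (L.φ (-s) x)) (f := pm L s x)
          (t := ball (0 : E2) 3) (s := ball (0 : E2) 3) isOpen_ball isOpen_ball
          (fun w hw => (pm_smoothAt hr _ hw).contDiffWithinAt)
          (fun w hw => (pm_smoothAt hst x hw).contDiffWithinAt) (pm_maps hst x) hk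
          (C := K) (M := Mc) (ε := Real.exp (-a' * s))
          (fun i hi w hw => hpmb i hi _ _ hr w hw) (Real.exp_pos _).le hε1 hM1
          (fun i _ hi w hw => by
            refine (hC i n x w hw).trans ?_
            have := hCM i hi
            gcongr) u hu
        refine h3.trans ?_
        rw [mul_assoc (k ! * K * Mc ^ k)]
        have h4 : Real.exp (-a' * s) ≤ Real.exp (2 * a' * L.t1) * Real.exp (-a' * t) := by
          rw [← Real.exp_add]
          exact Real.exp_le_exp.2 (by nlinarith)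
        gcongr
    refine ⟨(k ! * K * Mc ^ k) * Real.exp (2 * a' * L.t1), fun x t ht u hu => ?_⟩
    have h3 := key (L.φ t x) t ht u hu
    unfold pm at h3
    rw [L.φ_neg] at h3
    exact h3
  · have ht0 : 0 ≤ t := L.t1_pos.le.trans ht
    rw [one_mul]
    exact ContinuousLinearMap.opNorm_le_bound _ (Real.exp_pos _).le fun v => Dt_le M hb x ht0 v

/-- **(T1)**, from the rates of the metric, for every `L.χ` -/
theorem aff_of_rates (M : Metr L) {a b : ℝ} (ha : ∀ x v, a * ‖v‖ ^ 2 ≤ inner ℝ (M.U x v) v)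
    (hb : ∀ x v, inner ℝ (M.U x v) v ≤ b * ‖v‖ ^ 2) (h : b < 2 * a) :
    ∃ F : Aff L, (∀ x η, F.ch x η = F.c • aff L x η) ∧
    (∀ x, ∀ u ∈ ball (0 : E2) 3, F.ch x (L.e x u) = F.c • lin L x u) ∧
    ∀ t x, ((F.P t x : E2 →L[ℝ] E2)) = Dt L t x := by
  have hab : a ≤ b := by
    obtain ⟨x⟩ := L.nonempty
    obtain ⟨v, hv⟩ := exists_ne (0 : E2)
    have h3 : 0 < ‖v‖ ^ 2 := by positivity
    exact le_of_mul_le_mul_right ((ha x v).trans (hb x v)) h3
  have ha0 : 0 < a := by linarith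
  have hb0 : 0 < b := by linarith
  have h1 : (b / 2 + a) / 2 < a := by linarith
  exact exists_aff (lrates_all M (a' := (b / 2 + a) / 2) ha h1 (by linarith) (by linarith) hb)
    (by linarith)

end Vale.Agent.P207.N4.V.H77
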